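import Mathlib

/-!
# Row 251: the easy Sard theorem for affine families of equations

Recipe.  Fix `d₀ ∈ s`, a linear right inverse `R : W →L Λ` of `P d₀` (`LinearMap.exists_rightInverse_of_surjective`,
`LinearMap.toContinuousLinearMap`) and `N = ker (P d₀)`, `finrank N + finrank W = finrank Λ` (`LinearMap.finrank_range_add_finrank_ker`).
`d ↦ P d ∘L R` is `C¹` at `d₀` with value `1`, so there is an open `U ∋ d₀` on which `P`, `G` are `C¹` (`ContDiffAt.eventually`) and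
`P d ∘L R` is a unit (`Units.isOpen`).  `Φ (d, n) = R (Ring.inverse (P d ∘L R) (G d - P d n)) + n` is `C¹` on `U ×ˢ univ ⊆ D × N`
(`contDiffAt_ringInverse`, `ContDiffAt.clm_apply`).  If `d ∈ U`, `P d l = G d`, then `l = Φ (d, l - R (P d₀ l))`.
So this part of the set has `dimH ≤ finrank (D × N)` (`ContDiffOn.dimH_image_le` needs convexity: use
`dimH_image_le_of_locally_lipschitzOn` with `ContDiffAt.exists_lipschitzOnWith`, `dimH_mono`, `Real.dimH_univ_eq_finrank`), and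
`finrank D + finrank N ≤ finrank Λ - 1`.  Cover `s` by countably many such `U` (`TopologicalSpace.countable_cover_nhdsWithin`),
`dimH_bUnion`, `iSup₂_le`.
-/

set_option autoImplicit false

open Set Filter Topology Module

namespace Crest.Agent.R251.Deg

theorem Sard_local {D Λ W : Type} [NormedAddCommGroup D] [NormedSpace ℝ D] [FiniteDimensional ℝ D]
    [NormedAddCommGroup Λ] [NormedSpace ℝ Λ] [FiniteDimensional ℝ Λ]
    [NormedAddCommGroup W] [NormedSpace ℝ W] [FiniteDimensional ℝ W]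
    (hdim : finrank ℝ D < finrank ℝ W) (P : D → Λ →L[ℝ] W) (G : D → W) {d₀ : D}
    (hP : ContDiffAt ℝ 1 P d₀) (hG : ContDiffAt ℝ 1 G d₀) (hs : Function.Surjective (P d₀)) :
    ∃ U ∈ 𝓝 d₀, dimH {l : Λ | ∃ d ∈ U, P d l = G d} ≤ ((finrank ℝ Λ - 1 : ℕ) : ENNReal) := by
  have : CompleteSpace W := FiniteDimensional.complete ℝ W
  have hr : LinearMap.range (P d₀ : Λ →ₗ[ℝ] W) = ⊤ := LinearMap.range_eq_top.2 hs
  obtain ⟨R₀, hR₀⟩ := LinearMap.exists_rightInverse_of_surjective (P d₀ : Λ →ₗ[ℝ] W) hr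
  let R : W →L[ℝ] Λ := LinearMap.toContinuousLinearMap R₀
  have hR : ∀ w, P d₀ (R w) = w := fun w => LinearMap.congr_fun hR₀ w
  let N : Submodule ℝ Λ := LinearMap.ker (P d₀ : Λ →ₗ[ℝ] W)
  have hN : finrank ℝ W + finrank ℝ N = finrank ℝ Λ := by
    have := LinearMap.finrank_range_add_finrank_ker (P d₀ : Λ →ₗ[ℝ] W)
    rwa [hr, finrank_top] at this
  let Q : D → W →L[ℝ] W := fun d => (P d).comp R
  have hQ : ∀ d, ContDiffAt ℝ 1 P d → ContDiffAt ℝ 1 Q d := fun d hd =>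
    hd.clm_comp contDiffAt_const
  have hQ0 : Q d₀ = 1 := ContinuousLinearMap.ext hR
  have e1 : ∀ᶠ d in 𝓝 d₀, IsUnit (Q d) :=
    (hQ d₀ hP).continuousAt.eventually
      (Units.isOpen.mem_nhds (show Q d₀ ∈ {x : W →L[ℝ] W | IsUnit x} by
        rw [hQ0]; exact isUnit_one))
  have e2 : ∀ᶠ d in 𝓝 d₀, ContDiffAt ℝ 1 P d := hP.eventually (by simp)
  have e3 : ∀ᶠ d in 𝓝 d₀, ContDiffAt ℝ 1 G d := hG.eventually (by simp)
  let U : Set D := {d | IsUnit (Q d) ∧ ContDiffAt ℝ 1 P d ∧ ContDiffAt ℝ 1 G d}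
  refine ⟨U, e1.and (e2.and e3), ?_⟩
  let Φ : D × N → Λ := fun x =>
    R (Ring.inverse (Q x.1) (G x.1 - P x.1 (x.2 : Λ))) + (x.2 : Λ)
  have hΦ : ∀ x ∈ U ×ˢ (univ : Set N), ContDiffAt ℝ 1 Φ x := by
    rintro ⟨d, n⟩ ⟨⟨⟨u, hu⟩, h2, h3⟩, -⟩
    have hn : ContDiffAt ℝ 1 (fun x : D × N => (x.2 : Λ)) (d, n) :=
      N.subtypeL.contDiff.contDiffAt.comp (d, n) contDiffAt_snd
    have hi : ContDiffAt ℝ 1 (fun x : D × N => Ring.inverse (Q x.1)) (d, n) := by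
      have h4 : ContDiffAt ℝ 1 Ring.inverse (Q d) := by
        have h5 := contDiffAt_ringInverse ℝ (n := 1) u
        rw [hu] at h5
        exact h5
      exact ContDiffAt.comp (g := Ring.inverse) (f := fun x : D × N => Q x.1) (d, n) h4
        ((hQ d h2).comp (d, n) contDiffAt_fst)
    have hPd : ContDiffAt ℝ 1 (fun x : D × N => P x.1) (d, n) := h2.comp (d, n) contDiffAt_fst
    have hGd : ContDiffAt ℝ 1 (fun x : D × N => G x.1) (d, n) := h3.comp (d, n) contDiffAt_fst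
    exact (R.contDiff.contDiffAt.comp (d, n) (hi.clm_apply (hGd.sub (hPd.clm_apply hn)))).add hn
  have hsub : {l : Λ | ∃ d ∈ U, P d l = G d} ⊆ Φ '' (U ×ˢ univ) := by
    rintro l ⟨d, hd, hl⟩
    have hn : l - R (P d₀ l) ∈ N := by
      show P d₀ (l - R (P d₀ l)) = 0
      rw [map_sub, hR, sub_self]
    refine ⟨(d, ⟨_, hn⟩), ⟨hd, trivial⟩, ?_⟩
    have e : G d - P d (l - R (P d₀ l)) = Q d (P d₀ l) := by
      rw [map_sub, hl, sub_sub_cancel]; rfl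
    have e' : Ring.inverse (Q d) (Q d (P d₀ l)) = P d₀ l := by
      rw [← ContinuousLinearMap.mul_apply, Ring.inverse_mul_cancel _ hd.1]; rfl
    show R (Ring.inverse (Q d) (G d - P d (l - R (P d₀ l)))) + (l - R (P d₀ l)) = l
    rw [e, e', add_sub_cancel]
  refine (dimH_mono hsub).trans ((dimH_image_le_of_locally_lipschitzOn fun x hx => ?_).trans
    ((dimH_mono (subset_univ _)).trans ?_))
  · obtain ⟨K, t, ht, hK⟩ := (hΦ x hx).exists_lipschitzOnWith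
    exact ⟨K, t, mem_nhdsWithin_of_mem_nhds ht, hK⟩
  · rw [Real.dimH_univ_eq_finrank, finrank_prod]
    exact_mod_cast (by omega : finrank ℝ D + finrank ℝ N ≤ finrank ℝ Λ - 1)

theorem sard_affine {D Λ W : Type} [NormedAddCommGroup D] [NormedSpace ℝ D] [FiniteDimensional ℝ D]
    [NormedAddCommGroup Λ] [NormedSpace ℝ Λ] [FiniteDimensional ℝ Λ]
    [NormedAddCommGroup W] [NormedSpace ℝ W] [FiniteDimensional ℝ W]
    (h0 : 0 < finrank ℝ Λ) (hdim : finrank ℝ D < finrank ℝ W) (s : Set D) (P : D → Λ →L[ℝ] W) (G : D → W)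
    (hP : ∀ d ∈ s, ContDiffAt ℝ 1 P d) (hG : ∀ d ∈ s, ContDiffAt ℝ 1 G d)
    (hs : ∀ d ∈ s, Function.Surjective (P d)) :
    dimH {l : Λ | ∃ d ∈ s, P d l = G d} < finrank ℝ Λ := by
  have h : ∀ d₀ : D, ∃ U : Set D, d₀ ∈ s → U ∈ 𝓝 d₀ ∧
      dimH {l : Λ | ∃ d ∈ U, P d l = G d} ≤ ((finrank ℝ Λ - 1 : ℕ) : ENNReal) := by
    intro d₀
    by_cases hd : d₀ ∈ s
    · obtain ⟨U, hU, hU'⟩ := Sard_local hdim P G (hP d₀ hd) (hG d₀ hd) (hs d₀ hd)
      exact ⟨U, fun _ => ⟨hU, hU'⟩⟩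
    · exact ⟨∅, fun h => absurd h hd⟩
  choose U hU using h
  obtain ⟨t, hts, htc, hcov⟩ := TopologicalSpace.countable_cover_nhdsWithin
    (f := U) (s := s) fun d hd => mem_nhdsWithin_of_mem_nhds (hU d hd).1
  have hsub : {l : Λ | ∃ d ∈ s, P d l = G d} ⊆ ⋃ d₀ ∈ t, {l : Λ | ∃ d ∈ U d₀, P d l = G d} := by
    rintro l ⟨d, hd, hl⟩
    obtain ⟨d₀, hd₀, hdU⟩ := mem_iUnion₂.1 (hcov hd)
    exact mem_iUnion₂.2 ⟨d₀, hd₀, d, hdU, hl⟩
  refine lt_of_le_of_lt ((dimH_mono hsub).trans ?_)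
    (show ((finrank ℝ Λ - 1 : ℕ) : ENNReal) < finrank ℝ Λ by exact_mod_cast Nat.sub_lt h0 one_pos)
  rw [dimH_bUnion htc]
  exact iSup₂_le fun d₀ hd₀ => (hU d₀ (hts hd₀)).2

/-- three small sets do not cover the space -/
theorem exists_notMem {Λ : Type} [NormedAddCommGroup Λ] [NormedSpace ℝ Λ] [FiniteDimensional ℝ Λ]
    {A B C : Set Λ} (hA : dimH A < finrank ℝ Λ) (hB : dimH B < finrank ℝ Λ) (hC : dimH C < finrank ℝ Λ) :
    ∃ l, l ∉ A ∧ l ∉ B ∧ l ∉ C := by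
  have h : dimH (A ∪ B ∪ C) < finrank ℝ Λ := by
    rw [dimH_union, dimH_union]
    exact max_lt (max_lt hA hB) hC
  obtain ⟨l, hl⟩ := (dense_compl_of_dimH_lt_finrank h).nonempty
  simp only [mem_compl_iff, mem_union, not_or] at hl
  exact ⟨l, hl.1.1, hl.1.2, hl.2⟩

end Crest.Agent.R251.Deg
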